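import Vale.Agent.H13.ED.Final

namespace Vale.Agent.Results.P126.CrossPolytope

open Vale.Agent.H13.ED Pointwise

/-- Duality of metric entropy, with absolute constants, when `K` is a cross-polytope with
vertices `±v_i` and `L` is unconditional in the basis `v`, and when `L` is a parallelotope
with directions `v_i` and `K` is unconditional in the basis `v`. -/
theorem result :
    ∃ a b : ℝ, 1 ≤ a ∧ 1 ≤ b ∧
      ∀ (n : ℕ) (v : Module.Basis (Fin n) ℝ (Fin n → ℝ)) (K L : Set (Fin n → ℝ)),
        SymmetricConvexBody K → SymmetricConvexBody L →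
        (K = crossPolytope v ∧ Unconditional v L) ∨
          (Unconditional v K ∧ L = parallelotope v) →
        (∃ s : Finset (Fin n → ℝ), s.card = coveringNumber K L ∧ K ⊆ ⋃ x ∈ s, x +ᵥ L) ∧
        1 / b * Real.log (coveringNumber (polar L) (a • polar K)) ≤
          Real.log (coveringNumber K L) ∧
        Real.log (coveringNumber K L) ≤
          b * Real.log (coveringNumber (polar L) (a⁻¹ • polar K)) := by
  refine ⟨24, 16, by norm_num, by norm_num, ?_⟩
  intro n v K L hK hL h
  refine ⟨exists_covers_card hK.compact.isBounded hL.interior_nonempty, ?_⟩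
  have hcard := coveringNumber_pos hK.compact.isBounded hL.interior_nonempty
    (hK.interior_nonempty.mono interior_subset)
  rcases h with ⟨hKc, hLu⟩ | ⟨hKu, hLp⟩
  · obtain ⟨U, hLU, hS, hconv, hcomp, h0⟩ := body_coords v hL hLu
    have hKc' : K = v.equivFun ⁻¹' cross n := by rw [hKc, crossPolytope_eq]
    have e1 : coveringNumber K L = coveringNumber (cross n) U := by
      rw [hKc', hLU, coveringNumber_preimage]
    have e2 : ∀ t : ℝ, t ≠ 0 → coveringNumber (polar L) (t • polar K) =
        coveringNumber (polar U) (t • cube n) := by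
      intro t ht
      rw [hKc', hLU, polar_preimage, polar_preimage, smul_preimage _ _ ht,
        coveringNumber_preimage, polar_cross]
    rw [e2 24 (by norm_num), e2 24⁻¹ (by norm_num)]
    rw [e1] at hcard ⊢
    have hpos : 1 ≤ coveringNumber (polar U) ((24:ℝ)⁻¹ • cube n) :=
      coveringNumber_pos (polar_bounded h0) (cube_interior (by norm_num)) ⟨0, zero_mem_polar U⟩
    constructor
    · have := log_le_of_pow hcard (stdB hS hconv hcomp h0)
      push_cast at this
      linarith
    · have := log_le_of_pow hpos (stdA hS hconv hcomp h0)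
      push_cast at this
      exact this
  · obtain ⟨U, hKU, hS, hconv, hcomp, h0⟩ := body_coords v hK hKu
    have hLc' : L = v.equivFun ⁻¹' cube n := by rw [hLp, parallelotope_eq]
    have e1 : coveringNumber K L = coveringNumber U (cube n) := by
      rw [hLc', hKU, coveringNumber_preimage]
    have e2 : ∀ t : ℝ, t ≠ 0 → coveringNumber (polar L) (t • polar K) =
        coveringNumber (cross n) (t • polar U) := by
      intro t ht
      rw [hLc', hKU, polar_preimage, polar_preimage, smul_preimage _ _ ht,
        coveringNumber_preimage, polar_cube]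
    rw [e2 24 (by norm_num), e2 24⁻¹ (by norm_num)]
    rw [e1] at hcard ⊢
    have hb : Bornology.IsBounded U := hcomp.isBounded
    have hint : (interior ((24:ℝ)⁻¹ • polar U)).Nonempty := by
      refine ⟨(24:ℝ)⁻¹ • 0, ?_⟩
      rw [interior_smul₀ (by norm_num : (24:ℝ)⁻¹ ≠ 0)]
      exact Set.smul_mem_smul_set (polar_interior hb)
    have hpos : 1 ≤ coveringNumber (cross n) ((24:ℝ)⁻¹ • polar U) :=
      coveringNumber_pos cross_bounded hint ⟨0, by show ∑ i, |(0 : Fin n → ℝ) i| ≤ 1; simp⟩
    constructor
    · have := log_le_of_pow hcard (stdD hS hconv hcomp h0)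
      push_cast at this
      linarith
    · have := log_le_of_pow hpos (stdC hS hconv hcomp h0)
      push_cast at this
      exact this

end Vale.Agent.Results.P126.CrossPolytope
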