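import Vale.Agent.H13.ED2.Assemble

namespace Vale.Agent.Results.P126.Unconditional

open Vale.Agent.H13.ED Vale.Agent.H13.ED2 Pointwise

/-- Duality of metric entropy, with absolute constants, for all pairs `K`, `L` of symmetric
convex bodies of `ℝ^n` that are unconditional in the same basis `v`. -/
theorem result :
    ∃ a b : ℝ, 1 ≤ a ∧ 1 ≤ b ∧
      ∀ (n : ℕ) (v : Module.Basis (Fin n) ℝ (Fin n → ℝ)) (K L : Set (Fin n → ℝ)),
        SymmetricConvexBody K → SymmetricConvexBody L →
        Unconditional v K → Unconditional v L →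
        (∃ s : Finset (Fin n → ℝ), s.card = coveringNumber K L ∧ K ⊆ ⋃ x ∈ s, x +ᵥ L) ∧
        1 / b * Real.log (coveringNumber (polar L) (a • polar K)) ≤
          Real.log (coveringNumber K L) ∧
        Real.log (coveringNumber K L) ≤
          b * Real.log (coveringNumber (polar L) (a⁻¹ • polar K)) := by
  refine ⟨14404, 7814, by norm_num, by norm_num, ?_⟩
  intro n v K L hK hL hKu hLu
  refine ⟨exists_covers_card hK.compact.isBounded hL.interior_nonempty, ?_⟩
  have hcard := coveringNumber_pos hK.compact.isBounded hL.interior_nonempty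
    (hK.interior_nonempty.mono interior_subset)
  obtain ⟨U, hKU, hUS, hUc, hUk, hU0⟩ := body_coords v hK hKu
  obtain ⟨V, hLV, hVS, hVc, hVk, hV0⟩ := body_coords v hL hLu
  have e1 : coveringNumber K L = coveringNumber U V := by
    rw [hKU, hLV, coveringNumber_preimage]
  have e2 : ∀ t : ℝ, t ≠ 0 → coveringNumber (polar L) (t • polar K) =
      coveringNumber (polar V) (t • polar U) := by
    intro t ht
    rw [hKU, hLV, polar_preimage, polar_preimage, smul_preimage _ _ ht,
      coveringNumber_preimage]
  rw [e2 14404 (by norm_num), e2 14404⁻¹ (by norm_num)]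
  rw [e1] at hcard ⊢
  have hint : (interior ((14404:ℝ)⁻¹ • polar U)).Nonempty := by
    refine ⟨(14404:ℝ)⁻¹ • 0, ?_⟩
    rw [interior_smul₀ (by norm_num : (14404:ℝ)⁻¹ ≠ 0)]
    exact Set.smul_mem_smul_set (polar_interior hUk.isBounded)
  have hpos : 1 ≤ coveringNumber (polar V) ((14404:ℝ)⁻¹ • polar U) :=
    coveringNumber_pos (polar_bounded hV0) hint ⟨0, zero_mem_polar V⟩
  constructor
  · have := log_le_of_pow hcard (std1 hUS hUc hUk hU0 hVS hVc hVk hV0)
    push_cast at this
    linarith
  · have := log_le_of_pow hpos (std2 hUS hUc hUk hU0 hVS hVc hVk hV0)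
    push_cast at this
    exact this

end Vale.Agent.Results.P126.Unconditional
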